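import Vale.Agent.P096.Fin1

namespace Vale.Agent.Results.P096.Lift

open Vale.Agent.P096

universe u

/-- Strong Kadison-Kastler conjugacy for close von Neumann algebras `M`, `N` when `N` (or the
commutant of `N`) is the range of a linear projection of norm at most `K` defined on a subspace
containing both algebras (or both commutants). -/
theorem result (ε : ℝ) (hε : 0 < ε) (K : ℝ) : ∃ δ : ℝ, 0 < δ ∧
    ∀ (H : Type u) [NormedAddCommGroup H] [InnerProductSpace ℂ H] [CompleteSpace H]
      (M N : VonNeumannAlgebra H), kkDist (ops M) (ops N) < δ →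
      Complemented (ops M) (ops N) K ∨ Complemented (ops M.commutant) (ops N.commutant) K →
      NearConj (ops M) (ops N) ε := by
  have hK : 0 < |K| + 1 := by positivity
  obtain ⟨η, h0, h1, h2⟩ : ∃ η : ℝ, 0 < η ∧ η ≤ 1 / 10 ^ 8 ∧ 10 ^ 7 * η < ε :=
    ⟨min (1 / 10 ^ 8) (ε / 10 ^ 8), by positivity, min_le_left _ _, by
      have := min_le_right (1 / 10 ^ 8 : ℝ) (ε / 10 ^ 8)
      linarith⟩
  refine ⟨η / (24000 * (|K| + 1)), by positivity, fun H _ _ _ M N hd hc => ?_⟩
  have n1 := near_of_dist hd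
  have n2 := near_of_dist ((kkDist_comm _ _).trans_lt hd)
  have p0 : 0 ≤ η / (24000 * (|K| + 1)) := by positivity
  have e : 24000 * (η / (24000 * (|K| + 1))) = η / (|K| + 1) := by field_simp
  rcases hc with hc | hc
  · have le : η / (24000 * (|K| + 1)) ≤ η / (|K| + 1) := by linarith
    obtain ⟨u, hu, c1, c2, c3⟩ := conj_compl h0.le h1
      (fun x hx => (n1 x hx).imp fun y h => ⟨h.1, h.2.trans (by gcongr)⟩)
      (fun x hx => (n2 x hx).imp fun y h => ⟨h.1, h.2.trans (by gcongr)⟩) hc
    exact nearConj_of hu (by linarith) c2 c3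
  · obtain ⟨u, hu, c1, c2, c3⟩ := conj_compl h0.le h1 (e ▸ near_commutant p0 n2)
      (e ▸ near_commutant p0 n1) hc
    exact nearConj_of_commutant hu (by linarith) c2 c3

end Vale.Agent.Results.P096.Lift
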