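import Vale.Agent.P096.Fin2

namespace Vale.Agent.Results.P096.Semifinite

open Vale.Agent.P096

universe u

/-- The strong Kadison-Kastler conjecture when one of the two algebras is semifinite. -/
theorem result (ε : ℝ) (hε : 0 < ε) : ∃ δ : ℝ, 0 < δ ∧
    ∀ (H : Type u) [NormedAddCommGroup H] [InnerProductSpace ℂ H] [CompleteSpace H]
      (M N : VonNeumannAlgebra H), Semifinite (ops M) ∨ Semifinite (ops N) →
      kkDist (ops M) (ops N) < δ → NearConj (ops M) (ops N) ε := by
  obtain ⟨δ, h0, h1, h2⟩ : ∃ δ : ℝ, 0 < δ ∧ δ ≤ 1 / 10 ^ 14 ∧ 10 ^ 13 * δ < ε :=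
    ⟨min (1 / 10 ^ 14) (ε / 10 ^ 14), by positivity, min_le_left _ _, by
      have := min_le_right (1 / 10 ^ 14 : ℝ) (ε / 10 ^ 14)
      linarith⟩
  refine ⟨δ, h0, fun H _ _ _ M N hs hd => ?_⟩
  have n1 := near_of_dist hd
  have n2 := near_of_dist ((kkDist_comm _ _).trans_lt hd)
  rcases hs with hs | hs
  · obtain ⟨u, hu, c1, c2, c3⟩ := conj_sf hs h0.le h1 n2 n1
    refine nearConj_of (Unitary.star_mem hu) ?_ (by simpa only [star_star] using c3)
      (by simpa only [star_star] using c2)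
    rw [← norm_star, star_sub, star_star, star_one]
    linarith
  · obtain ⟨u, hu, c1, c2, c3⟩ := conj_sf hs h0.le h1 n1 n2
    exact nearConj_of hu (by linarith) c2 c3

end Vale.Agent.Results.P096.Semifinite
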